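import Vale.Agent.P032.H437.Fr

/-!
# P032: the own wedge rules (family F7)

`c = pt w (u + k)` is the limit point of the slot `k` of the circle about `w`.  The points of `S(w)`
with the limit palette `P` before (after) `u` accumulate at `c`; the unit circles about them pass
outside or inside `S(c)` near the points of the slots `k` and `k + 3` of `S(c)`.  On that side there
is a colour outside `P`.

`wedge_all` : the four cases.  `wedgeO`, `wedgeI` : on the lattice, both slots `m = k` (antipode) and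
`m = k + 3` (the centre `w` itself).
-/

open Set Filter Topology Metric

noncomputable section

namespace Vale.Agent.P032.H960

open Vale.Agent.P032.Six Vale.Agent.P032.Sweep Vale.Agent.P032.S5.H767 Vale.Agent.P032.H782
  Vale.Agent.P032.H437

variable {U : Fin 6 → Set ℂ} {T : ℂ → Set (Fin 6)} {u : ℝ} {F : Bool → Ultrafilter ℝ}

/-- the side filters -/
theorem Fr_le (h : Fr U T u F) (σ : Bool) :
    ((F σ : Ultrafilter ℝ) : Filter ℝ) ≤ cond σ (𝓝[>] u) (𝓝[<] u) := by
  cases σ
  · exact h.left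
  · exact h.right

theorem Fr_nhds (h : Fr U T u F) (σ : Bool) : ((F σ : Ultrafilter ℝ) : Filter ℝ) ≤ 𝓝 u := by
  refine (Fr_le h σ).trans ?_
  cases σ <;> exact nhdsWithin_le_nhds

theorem sub_smul_dist {p c : ℂ} (hp : dist p c = 1) {s : ℝ} (hs : 0 ≤ s) :
    dist (p + s * (p - c)) c = 1 + s := by
  have e : p + s * (p - c) - c = ((1 + s : ℝ) : ℂ) * (p - c) := by push_cast; ring
  rw [dist_eq_norm, e, norm_mul, ← dist_eq_norm, hp, mul_one, Complex.norm_real,
    Real.norm_of_nonneg (by linarith)]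

theorem add_smul_dist {p c : ℂ} (hp : dist p c = 1) {s : ℝ} (hs : s ≤ 1) :
    dist (p + s * (c - p)) c = 1 - s := by
  have e : p + s * (c - p) - c = ((1 - s : ℝ) : ℂ) * (p - c) := by push_cast; ring
  rw [dist_eq_norm, e, norm_mul, ← dist_eq_norm, hp, mul_one, Complex.norm_real,
    Real.norm_of_nonneg (by linarith)]

/-- the unit circles about the points `x` pass outside `S(c)` near `p` -/
theorem occ_out (h : Irr U T) {p c : ℂ} (hp : dist p c = 1) {P : Set (Fin 6)} (h3 : P.ncard ≤ 3)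
    (hx : ∃ᶠ x in 𝓝 c, T x = P ∧ dist p x < 1) :
    ∃ d ∉ P, OccIn T p {x | 1 < dist x c} d := by
  refine cell_sweep h (u := c) (m := p - c) (σ := -1)
    (isOpen_lt continuous_const (continuous_id.dist continuous_const)) ?_ h3 ?_
    (hx.mono fun x hx => ⟨hx.1, by linarith [hx.2]⟩)
  · filter_upwards [self_mem_nhdsWithin] with s hs
    have hs : (0 : ℝ) < s := hs
    show 1 < dist (p + s * (p - c)) c
    rw [sub_smul_dist hp hs.le]
    linarith
  · filter_upwards [self_mem_nhdsWithin] with s hs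
    have hs : (0 : ℝ) < s := hs
    rw [sub_smul_dist hp hs.le]
    linarith

/-- the unit circles about the points `x` pass inside `S(c)` near `p` -/
theorem occ_inn (h : Irr U T) {p c : ℂ} (hp : dist p c = 1) {P : Set (Fin 6)} (h3 : P.ncard ≤ 3)
    (hx : ∃ᶠ x in 𝓝 c, T x = P ∧ 1 < dist p x) :
    ∃ d ∉ P, OccIn T p {x | dist x c < 1} d := by
  have h1 : ∀ᶠ s : ℝ in 𝓝[>] 0, s < 1 := nhdsWithin_le_nhds (Iio_mem_nhds one_pos)
  refine cell_sweep h (u := c) (m := c - p) (σ := 1)
    (isOpen_lt (continuous_id.dist continuous_const) continuous_const) ?_ h3 ?_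
    (hx.mono fun x hx => ⟨hx.1, by linarith [hx.2]⟩)
  · filter_upwards [self_mem_nhdsWithin, h1] with s hs hs1
    have hs : (0 : ℝ) < s := hs
    show dist (p + s * (c - p)) c < 1
    rw [add_smul_dist hp hs1.le]
    linarith
  · filter_upwards [self_mem_nhdsWithin, h1] with s hs hs1
    have hs : (0 : ℝ) < s := hs
    rw [add_smul_dist hp hs1.le]
    linarith

/-- the points of `S(w)` with the limit palette accumulate at the limit point -/
theorem freq_lt (h : Fr U T u F) (w : ℂ) (k : ℝ) (σ : Bool) {b : ℂ → Prop}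
    (hb : ∀ᶠ v in cond σ (𝓝[>] u) (𝓝[<] u), b (pt w (v + k))) :
    ∃ᶠ x in 𝓝 (pt w (u + k)), T x = lt (F σ) T w k ∧ b x := by
  have h1 : ∀ᶠ v in ((F σ : Ultrafilter ℝ) : Filter ℝ),
      T (pt w (v + k)) = lt (F σ) T w k ∧ b (pt w (v + k)) :=
    (lt_spec (F σ) T w k).and ((Fr_le h σ) hb)
  exact (tendsto_slot (Fr_nhds h σ) w k).frequently h1.frequently

/-- a finite choice along an ultrafilter -/
theorem exists_of_ev {G : Ultrafilter ℝ} {P : Set (Fin 6)} {Q : ℝ → Fin 6 → Prop}
    (h : ∀ᶠ v in (G : Filter ℝ), ∃ d ∉ P, Q v d) : ∃ d ∉ P, ∀ᶠ v in (G : Filter ℝ), Q v d := by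
  by_contra hcon
  have h1 : ∀ d : Fin 6, ∀ᶠ v in (G : Filter ℝ), d ∉ P → ¬ Q v d := by
    intro d
    by_cases hd : d ∈ P
    · exact Eventually.of_forall fun _ h => absurd hd h
    · have h2 : ¬ ∀ᶠ v in (G : Filter ℝ), Q v d := by
        intro h3
        exact hcon ⟨d, hd, h3⟩
      filter_upwards [Ultrafilter.eventually_not.2 h2] with v hv _
      exact hv
  obtain ⟨v, ⟨d, hd, hQ⟩, h2⟩ := (h.and (eventually_all.2 h1)).exists
  exact h2 d hd hQ

theorem ev_gt {u : ℝ} {p : ℝ → Prop} {δ : ℝ} (hδ : 0 < δ) (h : ∀ s, 0 < s → s < δ → p (u + s)) :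
    ∀ᶠ v in 𝓝[>] u, p v := by
  have h2 : ∀ᶠ v in 𝓝[>] u, v < u + δ :=
    nhdsWithin_le_nhds (Iio_mem_nhds (by linarith : u < u + δ))
  filter_upwards [h2, self_mem_nhdsWithin] with v hv1 hv2
  have hv2 : u < v := hv2
  have := h (v - u) (by linarith) (by linarith)
  rwa [add_sub_cancel] at this

theorem ev_lt {u : ℝ} {p : ℝ → Prop} {δ : ℝ} (hδ : 0 < δ) (h : ∀ s, s < 0 → -δ < s → p (u + s)) :
    ∀ᶠ v in 𝓝[<] u, p v := by
  have h2 : ∀ᶠ v in 𝓝[<] u, u - δ < v :=
    nhdsWithin_le_nhds (Ioi_mem_nhds (by linarith : u - δ < u))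
  filter_upwards [h2, self_mem_nhdsWithin] with v hv1 hv2
  have hv2 : v < u := hv2
  have := h (v - u) (by linarith) (by linarith)
  rwa [add_sub_cancel] at this

/-- `F` after `u` -/
theorem evF {h : Fr U T u F} {σ : Bool} {p : ℝ → Prop}
    (hp : ∀ s : ℝ, 0 < s → s < 1 → p (u + cond σ s (-s))) :
    ∀ᶠ v in ((F σ : Ultrafilter ℝ) : Filter ℝ), p v := by
  refine Fr_le h σ ?_
  cases σ
  · exact ev_lt one_pos fun s hs0 hs1 => by
      have := hp (-s) (by linarith) (by linarith)
      simpa using this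
  · exact ev_gt one_pos fun s hs0 hs1 => hp s hs0 hs1

/-- **The four wedge rules.** -/
theorem wedge_all (h : Fr U T u F) (w : ℂ) (k : ℝ) (σ : Bool) :
    (∃ d ∉ lt (F σ) T w k, Out (F σ) T (pt w (u + k)) k d) ∧
    (∃ d ∉ lt (F σ) T w k, Inn (F (!σ)) T (pt w (u + k)) k d) ∧
    (∃ d ∉ lt (F σ) T w k, Out (F (!σ)) T (pt w (u + k)) (k + 3) d) ∧
    (∃ d ∉ lt (F σ) T w k, Inn (F σ) T (pt w (u + k)) (k + 3) d) := by
  have h3 : (lt (F σ) T w k).ncard ≤ 3 := lt_card h.irr (h.lc σ w k)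
  have e2 : ∀ s : ℝ, pt w (u + s + k) = pt w (u + k + s) := by intro s; congr 1; ring
  have e3 : ∀ a b j : ℝ, (u + k + j = u + a + b ∨ u + k + j = u + a + b + 6) →
      pt (pt w (u + k)) (u + a + b) = pt (pt w (u + k)) (u + k + j) := by
    rintro a b j (h1 | h1)
    · rw [h1]
    · rw [h1, pt_six]
  refine ⟨?_, ?_, ?_, ?_⟩
  · -- slot `k`, outside
    refine exists_of_ev (evF (h := h) fun a ha0 ha1 => ?_)
    refine occ_out h.irr (dist_pt _ _) h3 (freq_lt h w k σ
      (b := fun x => dist (pt (pt w (u + k)) (u + cond σ a (-a) + k)) x < 1) ?_)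
    cases σ
    · refine ev_lt ha0 fun s hs0 hs1 => ?_
      rw [e2, e3 _ _ (6 - a) (Or.inr (by simp only [cond_false]; ring))]
      exact move_left_in (by linarith) (by linarith) hs0 (by linarith)
    · refine ev_gt ha0 fun s hs0 hs1 => ?_
      rw [e2, e3 _ _ a (Or.inl (by simp only [cond_true]; ring))]
      exact move_right_in ha0 (by linarith) hs0 hs1
  · -- slot `k`, inside
    refine exists_of_ev (evF (h := h) fun a ha0 ha1 => ?_)
    refine occ_inn h.irr (dist_pt _ _) h3 (freq_lt h w k σ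
      (b := fun x => 1 < dist (pt (pt w (u + k)) (u + cond (!σ) a (-a) + k)) x) ?_)
    cases σ
    · refine ev_lt one_pos fun s hs0 hs1 => ?_
      rw [e2, e3 _ _ a (Or.inl (by simp only [Bool.not_false, cond_true]; ring))]
      exact move_left_out ha0 (by linarith) hs0 (by linarith)
    · refine ev_gt one_pos fun s hs0 hs1 => ?_
      rw [e2, e3 _ _ (6 - a) (Or.inr (by simp only [Bool.not_true, cond_false]; ring))]
      exact move_right_out (by linarith) (by linarith) hs0 (by linarith)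
  · -- slot `k + 3`, outside
    refine exists_of_ev (evF (h := h) fun a ha0 ha1 => ?_)
    refine occ_out h.irr (dist_pt _ _) h3 (freq_lt h w k σ
      (b := fun x => dist (pt (pt w (u + k)) (u + cond (!σ) a (-a) + (k + 3))) x < 1) ?_)
    cases σ
    · refine ev_lt one_pos fun s hs0 hs1 => ?_
      rw [e2, e3 _ _ (3 + a) (Or.inl (by simp only [Bool.not_false, cond_true]; ring))]
      exact move_left_in (by linarith) (by linarith) hs0 (by linarith)
    · refine ev_gt one_pos fun s hs0 hs1 => ?_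
      rw [e2, e3 _ _ (3 - a) (Or.inl (by simp only [Bool.not_true, cond_false]; ring))]
      exact move_right_in (by linarith) (by linarith) hs0 (by linarith)
  · -- slot `k + 3`, inside
    refine exists_of_ev (evF (h := h) fun a ha0 ha1 => ?_)
    refine occ_inn h.irr (dist_pt _ _) h3 (freq_lt h w k σ
      (b := fun x => 1 < dist (pt (pt w (u + k)) (u + cond σ a (-a) + (k + 3))) x) ?_)
    cases σ
    · refine ev_lt one_pos fun s hs0 hs1 => ?_
      rw [e2, e3 _ _ (3 - a) (Or.inl (by simp only [cond_false]; ring))]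
      exact move_left_out (by linarith) (by linarith) hs0 (by linarith)
    · refine ev_gt one_pos fun s hs0 hs1 => ?_
      rw [e2, e3 _ _ (3 + a) (Or.inl (by simp only [cond_true]; ring))]
      exact move_right_out (by linarith) (by linarith) hs0 (by linarith)

/-! ### On the lattice -/

/-- period -/
theorem Out_period {G : Ultrafilter ℝ} {w : ℂ} {k : ℝ} {d : Fin 6} :
    Out G T w (k + 6) d ↔ Out G T w k d := by
  unfold Out
  have e : ∀ v : ℝ, pt w (v + (k + 6)) = pt w (v + k) := fun v => by rw [← add_assoc, pt_six]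
  simp only [e]

theorem Inn_period {G : Ultrafilter ℝ} {w : ℂ} {k : ℝ} {d : Fin 6} :
    Inn G T w (k + 6) d ↔ Inn G T w k d := by
  unfold Inn
  have e : ∀ v : ℝ, pt w (v + (k + 6)) = pt w (v + k) := fun v => by rw [← add_assoc, pt_six]
  simp only [e]

/-- the opposite slot -/
theorem val_add_three (k : Fin 6) : ((k.val : ℝ) + 3 = ((k + 3 : Fin 6).val : ℝ)) ∨
    ((k.val : ℝ) + 3 = ((k + 3 : Fin 6).val : ℝ) + 6) := by
  fin_cases k
  · left; norm_num [Fin.val_add]
  · left; norm_num [Fin.val_add]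
  · left; norm_num [Fin.val_add]
  · right; norm_num [Fin.val_add]
  · right; norm_num [Fin.val_add]
  · right; norm_num [Fin.val_add]

theorem Out_opp {G : Ultrafilter ℝ} {w : ℂ} {k : Fin 6} {d : Fin 6}
    (h : Out G T w ((k.val : ℝ) + 3) d) : Out G T w (((k + 3 : Fin 6).val : ℝ)) d := by
  rcases val_add_three k with h1 | h1
  · rwa [h1] at h
  · rw [h1] at h; exact Out_period.1 h

theorem Inn_opp {G : Ultrafilter ℝ} {w : ℂ} {k : Fin 6} {d : Fin 6}
    (h : Inn G T w ((k.val : ℝ) + 3) d) : Inn G T w (((k + 3 : Fin 6).val : ℝ)) d := by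
  rcases val_add_three k with h1 | h1
  · rwa [h1] at h
  · rw [h1] at h; exact Inn_period.1 h

/-- the side of the family F7: `σ` at the antipode (`m = k`), `!σ` at the centre (`m = k + 3`) -/
def sp (k m : Fin 6) (σ : Bool) : Bool := if m = k then σ else !σ

/-- **F7, outside** (`wedgeO`) : slot `k` of the lattice point `(a, b)`, side `σ`, colour `i` in the
letter; slot `m = k` or `m = k + 3` of `(a, b) + e k`. -/
theorem wedgeO {z : ℂ} (h : Fr U T u F) (a b : ℤ) (k m : Fin 6) (σ : Bool)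
    (hm : m = k ∨ m = k + 3) {i : Fin 6}
    (hi : i ∈ lt (F σ) T (lp z u a b) (k.val : ℝ)) :
    ∃ d, d ≠ i ∧ Out (F (sp k m σ)) T (lp z u (a + dx k) (b + dy k)) (m.val : ℝ) d := by
  obtain ⟨⟨d1, h1, h1'⟩, -, ⟨d2, h2, h2'⟩, -⟩ := wedge_all h (lp z u a b) (k.val : ℝ) σ
  rw [lp_step] at h1' h2'
  by_cases hk : m = k
  · subst hk
    refine ⟨d1, fun h => h1 (h ▸ hi), ?_⟩
    have : sp m m σ = σ := by simp [sp]
    rw [this]
    exact h1'
  · have hm' : m = k + 3 := hm.resolve_left hk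
    refine ⟨d2, fun h => h2 (h ▸ hi), ?_⟩
    have : sp k m σ = !σ := by simp [sp, hk]
    rw [this, hm']
    exact Out_opp h2'

/-- **F7, inside** (`wedgeI`) -/
theorem wedgeI {z : ℂ} (h : Fr U T u F) (a b : ℤ) (k m : Fin 6) (σ : Bool)
    (hm : m = k ∨ m = k + 3) {i : Fin 6}
    (hi : i ∈ lt (F σ) T (lp z u a b) (k.val : ℝ)) :
    ∃ d, d ≠ i ∧ Inn (F (!sp k m σ)) T (lp z u (a + dx k) (b + dy k)) (m.val : ℝ) d := by
  obtain ⟨-, ⟨d1, h1, h1'⟩, -, ⟨d2, h2, h2'⟩⟩ := wedge_all h (lp z u a b) (k.val : ℝ) σ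
  rw [lp_step] at h1' h2'
  by_cases hk : m = k
  · subst hk
    refine ⟨d1, fun h => h1 (h ▸ hi), ?_⟩
    have : sp m m σ = σ := by simp [sp]
    rw [this]
    exact h1'
  · have hm' : m = k + 3 := hm.resolve_left hk
    refine ⟨d2, fun h => h2 (h ▸ hi), ?_⟩
    have : (!sp k m σ) = σ := by simp [sp, hk]
    rw [this, hm']
    exact Inn_opp h2'

end Vale.Agent.P032.H960
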